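import Vale.Agent.P037.Dup5

/-! The polynomial ordered matrix-removal conjecture is stable under monotone blow-ups of the
pattern (repeating rows and columns in adjacent positions), and therefore holds for every
`k × k` pattern, of any size `k`, that consists of two row blocks and two column blocks. -/

namespace Vale.Agent.Results.P037.BlockPatterns

open Vale.Agent.P037

theorem result :
    (∀ (k₀ k : ℕ) (G : Matrix (Fin k₀) (Fin k₀) Bool) (ρ γ : Fin k → Fin k₀),
      Monotone ρ → Function.Surjective ρ → Monotone γ → Function.Surjective γ →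
      PolyRemoval G →
      PolyRemoval (fun i j => G (ρ i) (γ j) : Matrix (Fin k) (Fin k) Bool)) ∧
    (∀ (k : ℕ) (G : Matrix (Fin 2) (Fin 2) Bool) (ρ γ : Fin k → Fin 2),
      Monotone ρ → Function.Surjective ρ → Monotone γ → Function.Surjective γ →
      PolyRemoval (fun i j => G (ρ i) (γ j) : Matrix (Fin k) (Fin k) Bool)) := by
  refine ⟨?_, ?_⟩
  · intro k₀ k G ρ γ hρ hρs hγ hγs hG
    exact PolyRemoval.blowup G ρ γ hρ hρs hγ hγs hG
  · intro k G ρ γ hρ hρs hγ hγs
    exact PolyRemoval.blowup G ρ γ hρ hρs hγ hγs (polyRemoval_two G)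

end Vale.Agent.Results.P037.BlockPatterns
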