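import Vale.Agent.Results.P037.AllTwoByTwo
import Vale.Agent.Results.P037.BlockPatterns

/-! P037: all `2 × 2` patterns with explicit constants, stability of the conjecture under monotone
blow-ups of the pattern, and all two-block patterns of every size. -/

namespace Vale.Agent.Results.P037.AllParts

open Vale.Agent.P037

theorem result :
    (∀ (H : Matrix (Fin 2) (Fin 2) Bool) (n : ℕ) (ε : ℝ) (A : Matrix (Fin n) (Fin n) Bool),
      1 ≤ n → 0 < ε → ε < 1 →
      (∀ B : Matrix (Fin n) (Fin n) Bool, numCopies H B = 0 →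
        ε * (n : ℝ) ^ 2 ≤ (entryDist A B : ℝ)) →
      (1 / 256 : ℝ) ^ 44 * ε ^ 44 * (n : ℝ) ^ (2 * 2) ≤ (numCopies H A : ℝ)) ∧
    (∀ (k₀ k : ℕ) (G : Matrix (Fin k₀) (Fin k₀) Bool) (ρ γ : Fin k → Fin k₀),
      Monotone ρ → Function.Surjective ρ → Monotone γ → Function.Surjective γ →
      PolyRemoval G →
      PolyRemoval (fun i j => G (ρ i) (γ j) : Matrix (Fin k) (Fin k) Bool)) ∧
    (∀ (k : ℕ) (G : Matrix (Fin 2) (Fin 2) Bool) (ρ γ : Fin k → Fin 2),
      Monotone ρ → Function.Surjective ρ → Monotone γ → Function.Surjective γ →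
      PolyRemoval (fun i j => G (ρ i) (γ j) : Matrix (Fin k) (Fin k) Bool)) :=
  ⟨AllTwoByTwo.result, BlockPatterns.result.1, BlockPatterns.result.2⟩

end Vale.Agent.Results.P037.AllParts
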