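import Vale.Agent.P037.Final

/-! Polynomial removal for the two diagonal `2 × 2` patterns (identity and anti-identity),
with explicit constants `c_H = 136 ^ (-44)` and `C_H = 44`. -/

namespace Vale.Agent.Results.P037.DiagonalPatterns

open Vale.Agent.P037

theorem result :
    ∀ H : Matrix (Fin 2) (Fin 2) Bool,
      (H = !![true, false; false, true] ∨ H = !![false, true; true, false]) →
      ∀ (n : ℕ) (ε : ℝ) (A : Matrix (Fin n) (Fin n) Bool), 1 ≤ n → 0 < ε → ε < 1 →
        (∀ B : Matrix (Fin n) (Fin n) Bool, numCopies H B = 0 →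
          ε * (n : ℝ) ^ 2 ≤ (entryDist A B : ℝ)) →
        (1 / 136 : ℝ) ^ 44 * ε ^ 44 * (n : ℝ) ^ (2 * 2) ≤ (numCopies H A : ℝ) := by
  intro H hH n ε A hn h0 h1 hfar
  have e : (1 / 136 : ℝ) ^ 44 * ε ^ 44 * (n : ℝ) ^ (2 * 2) = (ε / 136) ^ 44 * (n : ℝ) ^ 4 := by
    rw [div_pow ε, div_pow 1]
    ring
  rw [e]
  rcases hH with rfl | rfl
  · exact removal_id n ε A hn h0 h1 hfar
  · exact removal_anti n ε A hn h0 h1 hfar

end Vale.Agent.Results.P037.DiagonalPatterns
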