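import Vale.Agent.P037.GNatMain

/-! Polynomial removal for the `2 × 2` pattern `[[1,1],[1,0]]`,
with explicit constants `c_H = 256 ^ (-40)` and `C_H = 40`. -/

namespace Vale.Agent.Results.P037.GammaPattern

open Vale.Agent.P037

theorem result :
    ∀ (n : ℕ) (ε : ℝ) (A : Matrix (Fin n) (Fin n) Bool), 1 ≤ n → 0 < ε → ε < 1 →
      (∀ B : Matrix (Fin n) (Fin n) Bool, numCopies !![true, true; true, false] B = 0 →
        ε * (n : ℝ) ^ 2 ≤ (entryDist A B : ℝ)) →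
      (1 / 256 : ℝ) ^ 40 * ε ^ 40 * (n : ℝ) ^ (2 * 2)
        ≤ (numCopies !![true, true; true, false] A : ℝ) := by
  intro n ε A hn h0 h1 hfar
  have e : (1 / 256 : ℝ) ^ 40 * ε ^ 40 * (n : ℝ) ^ (2 * 2) = (ε / 256) ^ 40 * (n : ℝ) ^ 4 := by
    rw [div_pow ε, div_pow 1]
    ring
  rw [e]
  exact removal_gam n ε A hn h0 h1 hfar

end Vale.Agent.Results.P037.GammaPattern
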